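import Vale.Agent.P252.Geo

open Set Filter Topology Matrix
open scoped ContDiff

namespace Vale.Agent.P252

variable {k : ℕ} {x y μ μ1 : ℝ → ℝ}

lemma Prof.Ypos (P : Prof k x y μ μ1) {z : ℝ} (hz : 0 ≤ z) : 0 < 1 + z * y z := by
  have := mul_nonneg hz (P.ypos z hz)
  linarith

lemma D_eq {m : ℕ} (x y : ℝ → ℝ) (p : Fin (m + 1) → ℝ) :
    ff x (zz p) ^ 2 * x (zz p) * (1 + zz p * y (zz p)) / uu x p ^ 4 =
    (x (zz p) * ff x (zz p) / uu x p +
      (ff x (zz p) / uu x p ^ 3 - x (zz p) * ff x (zz p) / uu x p)) *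
    (x (zz p) * ff x (zz p) / uu x p + (x (zz p) * (x (zz p) + y (zz p)) * ff x (zz p) / uu x p
        - x (zz p) ^ 2 * ff x (zz p) ^ 2 / uu x p ^ 3) * zz p)
      - (-(x (zz p) * ff x (zz p) * p 0) / uu x p ^ 3) ^ 2 * zz p := by
  have hu := (uu_pos x p).ne'
  have hf := uu_sq x p
  field_simp
  rw [hf]
  ring

noncomputable def Bf (k : ℕ) (x y : ℝ → ℝ) (z : ℝ) : ℝ :=
  x z ^ (k + 2 + 1) * ff x z ^ (k + 3 + 1) * (1 + z * y z)

noncomputable def Wf (k : ℕ) (x y : ℝ → ℝ) (z : ℝ) : ℝ := Bf k x y z ^ (-(((k : ℝ) + 5) / (k + 6)))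

lemma Bf_pos (P : Prof k x y μ μ1) {z : ℝ} (hz : 0 ≤ z) : 0 < Bf k x y z := by
  have h1 := P.xpos z hz
  have h2 := ff_pos x z
  have h3 := P.Ypos hz
  unfold Bf; positivity

lemma det_uu (P : Prof k x y μ μ1) (p : Fin (k + 3 + 1) → ℝ) :
    (Hess (uu x) p).det = Bf k x y (zz p) / uu x p ^ (k + 6) := by
  have hu := (uu_pos x p).ne'
  have hx := (P.xpos _ (zz_nonneg p)).ne'
  have hf := (ff_pos x (zz p)).ne'
  have hc : x (zz p) * ff x (zz p) / uu x p ≠ 0 := by positivity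
  rw [Hess_uu P]
  refine mul_right_cancel₀ (pow_ne_zero 2 hc) ?_
  rw [MM_det (frame p) _ _ _ hc, ← D_eq x y p]
  unfold Bf
  rw [div_pow, div_pow, mul_pow]
  field_simp
  ring

lemma wfun_uu (P : Prof k x y μ μ1) : wfun (uu x : (Fin (k + 3 + 1) → ℝ) → ℝ) =
    fun q => uu x q ^ (k + 4 + 1) * Wf k x y (zz q) := by
  ext q
  have hu := uu_pos x q
  have hB := Bf_pos P (zz_nonneg q)
  unfold wfun Wf
  have e1 : -((((k + 3 + 1 : ℕ) : ℝ) + 1) / (((k + 3 + 1 : ℕ) : ℝ) + 2))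
      = -(((k : ℝ) + 5) / (k + 6)) := by push_cast; ring
  rw [det_uu P, e1, Real.div_rpow hB.le (by positivity), ← Real.rpow_natCast,
    ← Real.rpow_mul hu.le, div_eq_mul_inv, ← Real.rpow_neg hu.le, mul_comm, ← Real.rpow_natCast]
  congr 2
  push_cast
  field_simp
  ring

lemma Wf_deriv (P : Prof k x y μ μ1) {z : ℝ} (hz : 0 ≤ z) :
    HasDerivWithinAt (Wf k x y)
      (-((k + 5) / 2) * (x z + μ z * (1 + z * y z)) * Wf k x y z) (Ici 0) z := by
  have hB := Bf_pos P hz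
  have h1 : HasDerivWithinAt (Bf k x y)
      (Bf k x y z * ((k + 6) * (x z + μ z * (1 + z * y z)) / 2)) (Ici 0) z := by
    have := (((P.dx z hz).pow (k + 2 + 1)).mul
      ((ff_deriv (P.sx 0).continuousOn hz).hasDerivWithinAt.pow (k + 3 + 1))).mul (P.dY z hz)
    refine this.congr_deriv ?_
    simp only [Bf, Pi.mul_apply, Pi.pow_apply, Nat.add_sub_cancel]
    push_cast
    ring
  refine (h1.rpow_const (Or.inl hB.ne')).congr_deriv ?_
  unfold Wf
  rw [Real.rpow_sub_one hB.ne']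
  field_simp

lemma pd_w (P : Prof k x y μ μ1) (j : Fin (k + 3 + 1)) :
    pd j (wfun (uu x : (Fin (k + 3 + 1) → ℝ) → ℝ)) = fun q =>
      ((k + 5) * (Wf k x y (zz q) * uu x q ^ (k + 2 + 1))) * (q 0 * e0 j -
        (μ (zz q) * (1 + zz q * y (zz q)) * ff x (zz q)
          + (x (zz q) + μ (zz q) * (1 + zz q * y (zz q))) * (q 0 * q 0)) * xt q j) := by
  ext q
  rw [wfun_uu P]
  refine (((HP_uu P).pow (k + 4)).mul (HP_comp (Wf_deriv P (zz_nonneg q)))).pd_eq.trans ?_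
  have hu := (uu_pos x q).ne'
  have hf := uu_sq x q
  obtain ⟨U, hU⟩ : ∃ U, U = uu x q ^ (k + 3) := ⟨_, rfl⟩
  have e1 : uu x q ^ (k + 4) = U * uu x q := by rw [hU]; ring
  have e2 : uu x q ^ (k + 4 + 1) = U * uu x q ^ 2 := by rw [hU]; ring
  have e3 : uu x q ^ (k + 2 + 1) = U := by rw [hU]
  rw [e1, e2, e3]
  push_cast
  field_simp
  rw [hf]
  ring

lemma Hess_w (P : Prof k x y μ μ1) (p : Fin (k + 3 + 1) → ℝ) (Y ν B l ν' : ℝ)
    (eY : Y = 1 + zz p * y (zz p)) (eν : ν = μ (zz p) * Y)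
    (eB : B = ν * ff x (zz p) + (x (zz p) + ν) * p 0 ^ 2)
    (el : l = -(k + 5) * (x (zz p) + ν) + (k + 3) * x (zz p) * ff x (zz p) / uu x p ^ 2)
    (eν' : ν' = μ1 (zz p) * Y + μ (zz p) *
      (Y * (x (zz p) + (k + 6) * μ (zz p) * Y - (k + 3) * y (zz p)) / 2)) (i j : Fin (k + 3 + 1)) :
    Hess (wfun (uu x)) p i j = ((k + 5) * (Wf k x y (zz p) * uu x p ^ (k + 3))) *
      MM e0 (xt p) (-B) ((k + 3) * p 0 ^ 2 / uu x p ^ 2 + 1 + B)
        (-(k + 3) * p 0 * B / uu x p ^ 2 - 2 * (x (zz p) + ν) * p 0) (p 0 * l)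
        (-B * l - 2 * (ν' * ff x (zz p) + ν * x (zz p) * ff x (zz p)
          + (x (zz p) * (y (zz p) - x (zz p)) / 2 + ν') * p 0 ^ 2)) i j := by
  have hz := zz_nonneg p
  have hν : HP (fun q => μ (zz q) * (1 + zz q * y (zz q))) p i (ν' * (2 * xt p i)) :=
    ((HP_comp (P.dμ _ hz)).mul (HP_comp (P.dY _ hz))).congr (by rw [eν', eY]; ring)
  simp only [Hess, MM, Matrix.of_apply, pd_w P]
  refine (((HP.const _).mul ((HP_comp (Wf_deriv P hz)).mul ((HP_uu P).pow (k + 2)))).mul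
    ((HP_tau.mul (HP.const _)).sub (((hν.mul (HP_ff P)).add
      (((HP_comp (P.dx _ hz)).add hν).mul (HP_tau.mul HP_tau))).mul (HP_xt j)))).pd_eq.trans ?_
  have hu := (uu_pos x p).ne'
  obtain ⟨U, hU⟩ : ∃ U, U = uu x p ^ (k + 2) := ⟨_, rfl⟩
  have e1 : uu x p ^ (k + 2 + 1) = U * uu x p := by rw [hU]; ring
  have e2 : uu x p ^ (k + 3) = U * uu x p := by rw [hU]; ring
  rw [← hU, e1, ← eY, ← eν, el, eB]
  generalize (if i = j then (1 : ℝ) else 0) = δ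
  push_cast
  field_simp
  ring

lemma am_uu (P : Prof k x y μ μ1) : AffineMaximal (uu x : (Fin (k + 3 + 1) → ℝ) → ℝ) := by
  intro p
  have hz := zz_nonneg p
  have hu := (uu_pos x p).ne'
  have hx := (P.xpos _ hz).ne'
  have hf := (ff_pos x (zz p)).ne'
  have hY := (P.Ypos hz).ne'
  have hc : x (zz p) * ff x (zz p) / uu x p ≠ 0 := by positivity
  have hD : ff x (zz p) ^ 2 * x (zz p) * (1 + zz p * y (zz p)) / uu x p ^ 4 ≠ 0 := by positivity
  have hinv := MM_inv (frame p) hc hD (D_eq x y p)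
  rw [← Hess_uu P] at hinv
  simp only [Hess_w P p _ _ _ _ _ rfl rfl rfl rfl rfl, hinv]
  have : ∀ (a b : ℝ) (A B : Matrix (Fin (k + 3 + 1)) (Fin (k + 3 + 1)) ℝ),
      ∑ i, ∑ j, a * A i j * (b * B i j) = a * b * ∑ i, ∑ j, A i j * B i j := by
    intro a b A B
    simp only [Finset.mul_sum]
    exact Finset.sum_congr rfl fun i _ => Finset.sum_congr rfl fun j _ => by ring
  rw [this, MM_pair (frame p)]
  refine mul_eq_zero_of_right _ ?_
  have e := final_alg k (x (zz p)) (y (zz p)) (μ (zz p)) (ff x (zz p)) (p 0) (uu x p) (zz p) _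
    hx hf hu hY (uu_sq x p) _ _ _ _ _ _ _ _ _ _ rfl rfl rfl rfl rfl rfl rfl rfl rfl rfl rfl
  refine Eq.trans ?_ e
  have hμ := P.eμ _ hz
  congr 1
  · congr 1
    congr 1
    congr 1
    congr 1
    · push_cast; ring
    · congr 2
      rw [← hμ]; ring
  · congr 2
    rw [← hμ]; ring

lemma posdef_uu (P : Prof k x y μ μ1) {m : ℕ} (p : Fin (m + 1) → ℝ) : (Hess (uu x) p).PosDef := by
  have hz := zz_nonneg p
  have hu := uu_pos x p
  have hx := P.xpos _ hz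
  have hf := ff_pos x (zz p)
  have hy := P.ypos _ hz
  rw [Hess_uu P]
  refine Matrix.PosDef.of_dotProduct_mulVec_pos ?_ fun ξ hξ => ?_
  · ext i j
    simp only [Matrix.conjTranspose_apply, star_trivial]
    exact MM_symm _ _ _ _ _ _ _ _
  rw [star_trivial, MM_quad]
  have hS : ∑ i, e0 i * ξ i = ξ 0 := by simp [e0]
  obtain ⟨R, hR⟩ : ∃ R, R = ∑ i, xt p i * ξ i := ⟨_, rfl⟩
  obtain ⟨N, hN⟩ : ∃ N, N = ∑ i : Fin m, ξ i.succ ^ 2 := ⟨_, rfl⟩
  have hN0 : 0 ≤ N := by rw [hN]; positivity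
  rw [hS, ← hR, Fin.sum_univ_succ, ← hN]
  have key : x (zz p) * ff x (zz p) / uu x p * (ξ 0 ^ 2 + N) +
      (ff x (zz p) / uu x p ^ 3 - x (zz p) * ff x (zz p) / uu x p) * ξ 0 ^ 2 +
      2 * (-(x (zz p) * ff x (zz p) * p 0) / uu x p ^ 3) * (ξ 0 * R) +
      (x (zz p) * (x (zz p) + y (zz p)) * ff x (zz p) / uu x p
        - x (zz p) ^ 2 * ff x (zz p) ^ 2 / uu x p ^ 3) * R ^ 2
      = x (zz p) * ff x (zz p) / uu x p * N
        + ff x (zz p) / uu x p ^ 3 * (ξ 0 - x (zz p) * p 0 * R) ^ 2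
        + ff x (zz p) * x (zz p) * y (zz p) / uu x p * R ^ 2 := by
    have hf' := uu_sq x p
    field_simp
    rw [hf']
    ring
  rw [key]
  rcases hN0.eq_or_lt with h0 | h0
  · have h1 : ∀ i : Fin m, ξ i.succ = 0 := by
      intro i
      have := (Finset.sum_eq_zero_iff_of_nonneg (fun i _ => sq_nonneg (ξ (Fin.succ i)))).mp
        (hN ▸ h0.symm) i (Finset.mem_univ _)
      exact pow_eq_zero_iff two_ne_zero |>.mp this
    have h2 : R = 0 := by
      rw [hR, Fin.sum_univ_succ]; simp [xt, h1]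
    have h3 : ξ 0 ≠ 0 := by
      intro h3
      apply hξ
      ext i
      refine Fin.cases h3 h1 i
    rw [h2, ← h0]
    simp only [mul_zero, sub_zero, zero_add, ne_eq, OfNat.ofNat_ne_zero, not_false_eq_true,
      zero_pow, add_zero]
    positivity
  · positivity

lemma not_quad (x : ℝ → ℝ) {m : ℕ} : ¬ IsQuadratic (uu x : (Fin (m + 1) → ℝ) → ℝ) := by
  rintro ⟨A, b, c, h⟩
  have key : ∀ τ s : ℝ, 0 ≤ s → s ^ 2 = 1 + τ ^ 2 → s = 1 / 2 * (τ * (τ * A 0 0)) + b 0 * τ + c := by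
    intro τ s hs h1
    have h2 := h (Pi.single 0 τ)
    have h3 : zz (Pi.single 0 τ : Fin (m + 1) → ℝ) = 0 := by
      refine Finset.sum_eq_zero fun i _ => ?_
      unfold xt
      split_ifs with hi
      · simp
      · simp [Pi.single_eq_of_ne hi]
    have h4 : uu x (Pi.single 0 τ : Fin (m + 1) → ℝ) = s := by
      unfold uu
      rw [h3, Real.sqrt_eq_iff_mul_self_eq (arg_pos x (Pi.single 0 τ : Fin (m + 1) → ℝ) |>.le |> fun h5 => by
        rwa [h3] at h5) hs]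
      simp [ff]; linarith
    rw [h4] at h2
    simpa using h2
  have a1 := key 0 1 (by norm_num) (by norm_num)
  have a2 := key (3 / 4) (5 / 4) (by norm_num) (by norm_num)
  have a3 := key (-(3 / 4)) (5 / 4) (by norm_num) (by norm_num)
  have a4 := key (4 / 3) (5 / 3) (by norm_num) (by norm_num)
  linarith

theorem main (n : ℕ) (hn : 10 ≤ n) : ∃ u : (Fin n → ℝ) → ℝ, ContDiff ℝ ∞ u ∧
    (∀ p, (Hess u p).PosDef) ∧ AffineMaximal u ∧ ¬ IsQuadratic u := by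
  obtain ⟨k, rfl⟩ : ∃ k, n = k + 3 + 1 := ⟨n - 4, by omega⟩
  obtain ⟨x, y, μ, μ1, P⟩ := exists_prof (k := k) (by omega)
  exact ⟨uu x, uu_smooth P.sx, posdef_uu P, am_uu P, not_quad x⟩

end Vale.Agent.P252
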