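import Mathlib

open Finset Matrix

namespace Vale.Agent.P252

variable {n : ℕ}

def MM (e s : Fin n → ℝ) (c a b b' d : ℝ) : Matrix (Fin n) (Fin n) ℝ :=
  Matrix.of fun i j => c * (if i = j then 1 else 0) + a * (e i * e j) + b * (e i * s j)
    + b' * (s i * e j) + d * (s i * s j)

structure Fr (e s : Fin n → ℝ) (z : ℝ) : Prop where
  ee : ∑ i, e i * e i = 1
  es : ∑ i, e i * s i = 0
  ss : ∑ i, s i * s i = z

lemma MM_mul {e s : Fin n → ℝ} {z : ℝ} (h : Fr e s z) (c a b b' d c' a' β β' d' : ℝ) :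
    MM e s c a b b' d * MM e s c' a' β β' d' =
      MM e s (c * c') (c * a' + a * c' + a * a' + b * β' * z) (c * β + a * β + b * c' + b * d' * z)
        (c * β' + b' * c' + b' * a' + d * β' * z) (c * d' + b' * β + d * c' + d * d' * z) := by
  ext i j
  rw [Matrix.mul_apply]
  have key : ∀ l, MM e s c a b b' d i l * MM e s c' a' β β' d' l j =
      (if i = l then c * MM e s c' a' β β' d' l j else 0)
      + (if l = j then c' * (a * (e i * e l) + b * (e i * s l) + b' * (s i * e l) + d * (s i * s l))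
          else 0)
      + ((a * e i + b' * s i) * (a' * e j + β * s j)) * (e l * e l)
      + ((a * e i + b' * s i) * (β' * e j + d' * s j) + (b * e i + d * s i) * (a' * e j + β * s j))
          * (e l * s l)
      + ((b * e i + d * s i) * (β' * e j + d' * s j)) * (s l * s l) := by
    intro l
    simp only [MM, Matrix.of_apply]
    split_ifs <;> ring
  simp only [key, Finset.sum_add_distrib, ← Finset.mul_sum, h.ee, h.es, h.ss, Finset.sum_ite_eq,
    Finset.sum_ite_eq', Finset.mem_univ, if_true]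
  simp only [MM, Matrix.of_apply]
  ring

lemma MM_trace {e s : Fin n → ℝ} {z : ℝ} (h : Fr e s z) (c a b b' d : ℝ) :
    ∑ i, MM e s c a b b' d i i = c * n + a + d * z := by
  have : ∀ i, MM e s c a b b' d i i = c + a * (e i * e i) + (b + b') * (e i * s i) + d * (s i * s i) := by
    intro i; simp only [MM, Matrix.of_apply, if_true]; ring
  simp only [this, Finset.sum_add_distrib, ← Finset.mul_sum, h.ee, h.es, h.ss]
  simp; ring

lemma MM_symm (e s : Fin n → ℝ) (c a b d : ℝ) (i j : Fin n) :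
    MM e s c a b b d i j = MM e s c a b b d j i := by
  simp only [MM, Matrix.of_apply, eq_comm (a := i)]
  ring

lemma MM_pair {e s : Fin n → ℝ} {z : ℝ} (h : Fr e s z) (c a b d c' a' β β' d' : ℝ) :
    ∑ i, ∑ j, MM e s c a b b d i j * MM e s c' a' β β' d' i j =
      c * c' * n + c * (a' + d' * z) + c' * (a + d * z) + a * a' + b * (β + β') * z
        + d * (d' * z) * z := by
  have h1 : ∀ i, ∑ j, MM e s c a b b d i j * MM e s c' a' β β' d' i j
      = (MM e s c' a' β β' d' * MM e s c a b b d) i i := by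
    intro i
    rw [Matrix.mul_apply]
    exact Finset.sum_congr rfl fun j _ => by rw [MM_symm e s c a b d i j, mul_comm]
  simp only [h1]
  rw [MM_mul h, MM_trace h]
  ring

lemma MM_inv {e s : Fin n → ℝ} {z : ℝ} (h : Fr e s z) {c a b d D : ℝ} (hc : c ≠ 0) (hD : D ≠ 0)
    (hD' : D = (c + a) * (c + d * z) - b ^ 2 * z) :
    (MM e s c a b b d)⁻¹ = MM e s (1 / c) ((c + d * z) / D - 1 / c) (-b / D) (-b / D)
      ((b ^ 2 - (c + a) * d) / (c * D)) := by
  refine Matrix.inv_eq_right_inv ?_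
  rw [MM_mul h]
  have e1 : c * (1 / c) = 1 := by field_simp
  have e2 : c * ((c + d * z) / D - 1 / c) + a * (1 / c) + a * ((c + d * z) / D - 1 / c)
      + b * (-b / D) * z = 0 := by field_simp; rw [hD']; ring
  have e3 : c * (-b / D) + a * (-b / D) + b * (1 / c)
      + b * ((b ^ 2 - (c + a) * d) / (c * D)) * z = 0 := by field_simp; rw [hD']; ring
  have e4 : c * (-b / D) + b * (1 / c) + b * ((c + d * z) / D - 1 / c) + d * (-b / D) * z = 0 := by
    field_simp; ring
  have e5 : c * ((b ^ 2 - (c + a) * d) / (c * D)) + b * (-b / D) + d * (1 / c)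
      + d * ((b ^ 2 - (c + a) * d) / (c * D)) * z = 0 := by field_simp; rw [hD']; ring
  rw [e1, e2, e3, e4, e5]
  ext i j
  simp [MM, Matrix.one_apply]

lemma MM_det {e s : Fin n → ℝ} {z : ℝ} (h : Fr e s z) {c : ℝ} (a b d : ℝ) (hc : c ≠ 0) :
    (MM e s c a b b d).det * c ^ 2 = c ^ n * ((c + a) * (c + d * z) - b ^ 2 * z) := by
  obtain ⟨U, hU⟩ : ∃ U : Matrix (Fin n) (Fin 2) ℝ, U = Matrix.of fun i l => ![e i, s i] l := ⟨_, rfl⟩
  obtain ⟨V, hV⟩ : ∃ V : Matrix (Fin 2) (Fin n) ℝ, V = Matrix.of fun l j =>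
    ![(a * e j + b * s j) / c, (b * e j + d * s j) / c] l := ⟨_, rfl⟩
  have h1 : MM e s c a b b d = c • (1 + U * V) := by
    ext i j
    simp only [MM, hU, hV, Matrix.of_apply, Matrix.smul_apply, Matrix.add_apply, Matrix.one_apply,
      Matrix.mul_apply, Fin.sum_univ_two, smul_eq_mul, Matrix.cons_val_zero, Matrix.cons_val_one]
    field_simp
    ring
  have s1 : ∀ p q : ℝ, ∑ j, (p * e j + q * s j) / c * e j = p / c := by
    intro p q
    have : ∀ j, (p * e j + q * s j) / c * e j = p / c * (e j * e j) + q / c * (e j * s j) :=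
      fun j => by ring
    simp only [this, Finset.sum_add_distrib, ← Finset.mul_sum, h.ee, h.es]; ring
  have s2 : ∀ p q : ℝ, ∑ j, (p * e j + q * s j) / c * s j = q * z / c := by
    intro p q
    have : ∀ j, (p * e j + q * s j) / c * s j = p / c * (e j * s j) + q / c * (s j * s j) :=
      fun j => by ring
    simp only [this, Finset.sum_add_distrib, ← Finset.mul_sum, h.ss, h.es]; ring
  rw [h1, Matrix.det_smul, Matrix.det_one_add_mul_comm, Matrix.det_fin_two]
  simp only [hU, hV, Matrix.add_apply, Matrix.mul_apply, Matrix.of_apply, Matrix.cons_val_zero,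
    Matrix.cons_val_one, s1, s2, Fintype.card_fin, Matrix.one_apply]
  simp
  field_simp

lemma MM_quad (e s ξ : Fin n → ℝ) (c a b d : ℝ) :
    ξ ⬝ᵥ (MM e s c a b b d *ᵥ ξ) = c * ∑ i, ξ i ^ 2 + a * (∑ i, e i * ξ i) ^ 2
      + 2 * b * ((∑ i, e i * ξ i) * ∑ i, s i * ξ i) + d * (∑ i, s i * ξ i) ^ 2 := by
  have h1 : ∀ i, (MM e s c a b b d *ᵥ ξ) i = c * ξ i + (a * e i + b * s i) * (∑ j, e j * ξ j)
      + (b * e i + d * s i) * ∑ j, s j * ξ j := by
    intro i
    have : ∀ j, MM e s c a b b d i j * ξ j = (if i = j then c * ξ j else 0)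
        + (a * e i + b * s i) * (e j * ξ j) + (b * e i + d * s i) * (s j * ξ j) := by
      intro j; simp only [MM, Matrix.of_apply]; split_ifs <;> ring
    simp only [Matrix.mulVec, dotProduct, this, Finset.sum_add_distrib, ← Finset.mul_sum,
      Finset.sum_ite_eq, Finset.mem_univ, if_true]
  obtain ⟨S, hS⟩ : ∃ S, S = ∑ j, e j * ξ j := ⟨_, rfl⟩
  obtain ⟨R, hR⟩ : ∃ R, R = ∑ j, s j * ξ j := ⟨_, rfl⟩
  simp only [dotProduct, h1, ← hS, ← hR]
  have : ∀ i, ξ i * (c * ξ i + (a * e i + b * s i) * S + (b * e i + d * s i) * R)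
      = c * ξ i ^ 2 + (a * S + b * R) * (e i * ξ i) + (b * S + d * R) * (s i * ξ i) :=
    fun i => by ring
  simp only [this, Finset.sum_add_distrib, ← Finset.mul_sum, ← hS, ← hR]
  ring

lemma final_alg (k x y μ f τ u z dz : ℝ) (hx : x ≠ 0) (hf : f ≠ 0) (hu : u ≠ 0)
    (hY : 1 + z * y ≠ 0) (hfu : f = u ^ 2 - τ ^ 2)
    (Y ν B l c a b d D zν : ℝ) (eY : Y = 1 + z * y) (eν : ν = μ * Y) (eB : B = ν * f + (x + ν) * τ ^ 2)
    (el : l = -(k + 5) * (x + ν) + (k + 3) * x * f / u ^ 2)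
    (ec : c = x * f / u) (ea : a = f / u ^ 3 - x * f / u) (eb : b = -(x * f * τ) / u ^ 3)
    (ed : d = x * (x + y) * f / u - x ^ 2 * f ^ 2 / u ^ 3) (eD : D = f ^ 2 * x * Y / u ^ 4)
    (ez : zν = ((1 - z * μ) * (μ * Y + x) - (k + 4) * μ) * Y
      + z * μ * (Y * (x + (k + 6) * μ * Y - (k + 3) * y)))
    (edz : dz = -B * l * z - (zν * f + 2 * z * ν * x * f + (z * x * (y - x) + zν) * τ ^ 2)) :
    1 / c * (-B) * (k + 4) + 1 / c * (((k + 3) * τ ^ 2 / u ^ 2 + 1 + B) + dz)
      + (-B) * (((c + d * z) / D - 1 / c) + (b ^ 2 - (c + a) * d) / (c * D) * z)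
      + ((c + d * z) / D - 1 / c) * ((k + 3) * τ ^ 2 / u ^ 2 + 1 + B)
      + (-b / D) * ((-(k + 3) * τ * B / u ^ 2 - 2 * (x + ν) * τ) + τ * l) * z
      + (b ^ 2 - (c + a) * d) / (c * D) * dz * z = 0 := by
  have hY' : Y ≠ 0 := eY ▸ hY
  have g1 : (b ^ 2 - (c + a) * d) / (c * D) * z = u / (f * x * Y) - u / (x * f) := by
    rw [ea, eb, ec, ed, eD]
    field_simp
    rw [eY, hfu]; ring
  have g2 : (c + d * z) / D = (u ^ 2 * Y + x * z * τ ^ 2) * u / (f * Y) := by
    rw [ec, ed, eD]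
    field_simp
    rw [eY, hfu]; ring
  have g3 : -b / D = τ * u / (f * Y) := by
    rw [eb, eD]; field_simp
  have g4 : (b ^ 2 - (c + a) * d) / (c * D) * dz * z = (u / (f * x * Y) - u / (x * f)) * dz := by
    rw [← g1]; ring
  have g5 : 1 / c = u / (x * f) := by rw [ec]; field_simp
  rw [g4, g1, g2, g3, g5, edz, el]
  field_simp
  rw [ez, eB, eν, eY, hfu]
  ring

end Vale.Agent.P252
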