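import Vale.Agent.P252.Reg
import Vale.Agent.P252.Lin

open Set Filter Topology Matrix
open scoped ContDiff

namespace Vale.Agent.P252

/-- Partial derivative in the `i`-th coordinate. -/
noncomputable def pd {n : ℕ} (i : Fin n) (g : (Fin n → ℝ) → ℝ) (p : Fin n → ℝ) : ℝ :=
  deriv (fun t => g (Function.update p i t)) (p i)

/-- Hessian matrix. -/
noncomputable def Hess {n : ℕ} (g : (Fin n → ℝ) → ℝ) (p : Fin n → ℝ) : Matrix (Fin n) (Fin n) ℝ :=
  Matrix.of fun i j => pd i (pd j g) p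

/-- `w = (det D^2 u)^(-(n+1)/(n+2))`. -/
noncomputable def wfun {n : ℕ} (u : (Fin n → ℝ) → ℝ) (p : Fin n → ℝ) : ℝ :=
  (Hess u p).det ^ (-(((n : ℝ) + 1) / ((n : ℝ) + 2)))

/-- The affine maximal equation at every point of `R^n`. -/
def AffineMaximal {n : ℕ} (u : (Fin n → ℝ) → ℝ) : Prop :=
  ∀ p, ∑ i, ∑ j, ((Hess u p).det * (Hess u p)⁻¹ i j) * Hess (wfun u) p i j = 0

/-- `u` is a polynomial of degree at most two. -/
def IsQuadratic {n : ℕ} (u : (Fin n → ℝ) → ℝ) : Prop :=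
  ∃ (A : Matrix (Fin n) (Fin n) ℝ) (b : Fin n → ℝ) (c : ℝ),
    ∀ p, u p = (1 / 2) * (p ⬝ᵥ (A *ᵥ p)) + b ⬝ᵥ p + c

variable {m : ℕ}

def HP (g : (Fin (m + 1) → ℝ) → ℝ) (p : Fin (m + 1) → ℝ) (i : Fin (m + 1)) (d : ℝ) : Prop :=
  HasDerivAt (fun t => g (Function.update p i t)) d (p i)

def e0 (i : Fin (m + 1)) : ℝ := if i = 0 then 1 else 0
def xt (p : Fin (m + 1) → ℝ) (i : Fin (m + 1)) : ℝ := if i = 0 then 0 else p i
def zz (p : Fin (m + 1) → ℝ) : ℝ := ∑ i, xt p i * xt p i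

lemma zz_nonneg (p : Fin (m + 1) → ℝ) : 0 ≤ zz p := Finset.sum_nonneg fun _ _ => mul_self_nonneg _

lemma frame (p : Fin (m + 1) → ℝ) : Fr e0 (xt p) (zz p) := by
  refine ⟨?_, ?_, rfl⟩
  · simp [e0]
  · refine Finset.sum_eq_zero fun i _ => ?_
    unfold e0 xt; split_ifs <;> simp

variable {g h : (Fin (m + 1) → ℝ) → ℝ} {p : Fin (m + 1) → ℝ} {i : Fin (m + 1)} {d d' : ℝ}

lemma HP.pd_eq (H : HP g p i d) : pd i g p = d := H.deriv
lemma HP.congr (H : HP g p i d) (e : d = d') : HP g p i d' := e ▸ H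
lemma HP.const (c : ℝ) : HP (fun _ => c) p i 0 := hasDerivAt_const _ _
lemma HP.add (H : HP g p i d) (H' : HP h p i d') : HP (fun q => g q + h q) p i (d + d') :=
  HasDerivAt.add H H'
lemma HP.sub (H : HP g p i d) (H' : HP h p i d') : HP (fun q => g q - h q) p i (d - d') :=
  HasDerivAt.sub H H'
lemma HP.mul (H : HP g p i d) (H' : HP h p i d') :
    HP (fun q => g q * h q) p i (d * h p + g p * d') := by
  have := HasDerivAt.mul H H'
  simp only [Function.update_eq_self] at this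
  exact this
lemma HP.div (H : HP g p i d) (H' : HP h p i d') (h0 : h p ≠ 0) :
    HP (fun q => g q / h q) p i ((d * h p - g p * d') / h p ^ 2) := by
  have := HasDerivAt.div H H' (by simpa using h0)
  simp only [Function.update_eq_self] at this
  exact this
lemma HP.pow (H : HP g p i d) (k : ℕ) :
    HP (fun q => g q ^ (k + 1)) p i ((k + 1) * g p ^ k * d) := by
  have := HasDerivAt.pow H (k + 1)
  simp only [Function.update_eq_self, Nat.add_sub_cancel, Nat.cast_add, Nat.cast_one] at this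
  exact this
lemma HP.sqrt (H : HP g p i d) (h0 : g p ≠ 0) :
    HP (fun q => √(g q)) p i (d / (2 * √(g p))) := by
  have := HasDerivAt.sqrt H (by simpa using h0)
  simp only [Function.update_eq_self] at this
  exact this

lemma HP_coord (j : Fin (m + 1)) : HP (fun q => q j) p i (if i = j then 1 else 0) := by
  unfold HP
  split_ifs with h
  · subst h; simp only [Function.update_self]; exact hasDerivAt_id' (p i)
  · simpa [Function.update_of_ne (Ne.symm h)] using hasDerivAt_const (p i) (p j)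

lemma HP_tau : HP (fun q => q 0) p i (e0 i) := HP_coord 0

lemma HP_xt (j : Fin (m + 1)) :
    HP (fun q => xt q j) p i ((if i = j then 1 else 0) - e0 i * e0 j) := by
  unfold xt e0
  by_cases hj : j = 0
  · simp only [hj, if_true]
    exact (HP.const 0).congr (by split_ifs <;> simp)
  · simp only [hj, if_false]
    exact (HP_coord j).congr (by simp)

lemma HP_zz : HP zz p i (2 * xt p i) := by
  have h1 : HasDerivAt (fun t => ∑ j, xt (Function.update p i t) j * xt (Function.update p i t) j)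
      (∑ j, (((if i = j then 1 else 0) - e0 i * e0 j) * xt p j
        + xt p j * ((if i = j then 1 else 0) - e0 i * e0 j))) (p i) :=
    HasDerivAt.fun_sum fun j _ => (HP_xt j).mul (HP_xt j)
  refine h1.congr_deriv ?_
  have : ∀ j, ((if i = j then 1 else 0) - e0 i * e0 j) * xt p j
        + xt p j * ((if i = j then 1 else 0) - e0 i * e0 j)
      = (if i = j then 2 * xt p j else 0) - 2 * e0 i * (e0 j * xt p j) := by
    intro j; split_ifs <;> ring
  simp only [this, Finset.sum_sub_distrib, ← Finset.mul_sum, (frame p).es, Finset.sum_ite_eq,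
    Finset.mem_univ, if_true]
  ring

lemma HP_comp {F : ℝ → ℝ} {F' : ℝ} (hF : HasDerivWithinAt F F' (Ici 0) (zz p)) :
    HP (fun q => F (zz q)) p i (F' * (2 * xt p i)) :=
  HasDerivWithinAt.comp_hasDerivAt_of_eq (p i) hF HP_zz
    (Eventually.of_forall fun _ => zz_nonneg _) (by simp)

noncomputable def ff (x : ℝ → ℝ) (z : ℝ) : ℝ := Real.exp (∫ w in (0 : ℝ)..z, x (max w 0))

lemma ff_pos (x : ℝ → ℝ) (z : ℝ) : 0 < ff x z := Real.exp_pos _

lemma ff_deriv {x : ℝ → ℝ} (hx : ContinuousOn x (Ici 0)) {z : ℝ} (hz : 0 ≤ z) :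
    HasDerivAt (ff x) (x z * ff x z) z := by
  have h1 : Continuous (fun w => x (max w 0)) :=
    hx.comp_continuous (by fun_prop) fun w => mem_Ici.mpr (le_max_right _ _)
  have h2 := ((h1.integral_hasStrictDerivAt 0 z).hasDerivAt).exp
  rw [max_eq_left hz, mul_comm] at h2
  exact h2

lemma ff_smooth {x : ℝ → ℝ} (hx : ∀ j : ℕ, ContDiffOn ℝ j x (Ici 0)) (j : ℕ) :
    ContDiffOn ℝ j (ff x) (Ici 0) := by
  have hc : ContinuousOn (ff x) (Ici 0) := fun z hz =>
    (ff_deriv (hx 0).continuousOn hz).continuousAt.continuousWithinAt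
  induction j with
  | zero => simpa using hc
  | succ j ih =>
    exact smooth_succ hc ((hx j).mul ih) fun z hz => ff_deriv (hx 0).continuousOn hz.le

noncomputable def uu (x : ℝ → ℝ) (q : Fin (m + 1) → ℝ) : ℝ := √(ff x (zz q) + q 0 * q 0)

lemma arg_pos (x : ℝ → ℝ) (q : Fin (m + 1) → ℝ) : 0 < ff x (zz q) + q 0 * q 0 :=
  add_pos_of_pos_of_nonneg (ff_pos _ _) (mul_self_nonneg _)

lemma uu_pos (x : ℝ → ℝ) (q : Fin (m + 1) → ℝ) : 0 < uu x q := Real.sqrt_pos.mpr (arg_pos x q)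

lemma uu_sq (x : ℝ → ℝ) (q : Fin (m + 1) → ℝ) : ff x (zz q) = uu x q ^ 2 - q 0 ^ 2 := by
  unfold uu; rw [Real.sq_sqrt (arg_pos x q).le]; ring

lemma uu_smooth {x : ℝ → ℝ} (hx : ∀ j : ℕ, ContDiffOn ℝ j x (Ici 0)) :
    ContDiff ℝ ∞ (uu x : (Fin (m + 1) → ℝ) → ℝ) := by
  have h1 : ContDiff ℝ ∞ (zz : (Fin (m + 1) → ℝ) → ℝ) := by
    refine ContDiff.sum fun j _ => ?_
    have : ContDiff ℝ ∞ (fun q : Fin (m + 1) → ℝ => xt q j) := by
      unfold xt; split_ifs
      · exact contDiff_const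
      · exact contDiff_apply ℝ ℝ j
    exact this.mul this
  have h2 := (contDiffOn_infty.mpr (ff_smooth hx)).comp_contDiff h1 fun q => zz_nonneg q
  exact (h2.add ((contDiff_apply ℝ ℝ 0).mul (contDiff_apply ℝ ℝ 0))).sqrt
    fun q => (arg_pos x q).ne'

section
variable {k : ℕ} {x y μ μ1 : ℝ → ℝ}

lemma HP_ff (P : Prof k x y μ μ1) :
    HP (fun q => ff x (zz q)) p i (x (zz p) * ff x (zz p) * (2 * xt p i)) :=
  HP_comp (ff_deriv (P.sx 0).continuousOn (zz_nonneg p)).hasDerivWithinAt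

lemma HP_uu (P : Prof k x y μ μ1) :
    HP (uu x) p i ((x (zz p) * ff x (zz p) * xt p i + p 0 * e0 i) / uu x p) := by
  refine (((HP_ff P).add (HP_tau.mul HP_tau)).sqrt (arg_pos x p).ne').congr ?_
  have := (uu_pos x p).ne'
  change _ / (2 * uu x p) = _
  field_simp
  ring

lemma Hess_uu (P : Prof k x y μ μ1) (p : Fin (m + 1) → ℝ) :
    Hess (uu x) p = MM e0 (xt p) (x (zz p) * ff x (zz p) / uu x p)
      (ff x (zz p) / uu x p ^ 3 - x (zz p) * ff x (zz p) / uu x p)
      (-(x (zz p) * ff x (zz p) * p 0) / uu x p ^ 3) (-(x (zz p) * ff x (zz p) * p 0) / uu x p ^ 3)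
      (x (zz p) * (x (zz p) + y (zz p)) * ff x (zz p) / uu x p
        - x (zz p) ^ 2 * ff x (zz p) ^ 2 / uu x p ^ 3) := by
  ext i j
  have h1 : pd j (uu x) = fun q : Fin (m + 1) → ℝ =>
      (x (zz q) * ff x (zz q) * xt q j + q 0 * e0 j) / uu x q := funext fun q => (HP_uu P).pd_eq
  simp only [Hess, MM, Matrix.of_apply, h1]
  have hu := (uu_pos x p).ne'
  refine (((((HP_comp (P.dx _ (zz_nonneg p))).mul (HP_ff P)).mul (HP_xt j)).add
    (HP_tau.mul (HP.const _))).div (HP_uu P) hu).pd_eq.trans ?_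
  have hf := uu_sq x p
  generalize (if i = j then (1 : ℝ) else 0) = δ
  field_simp
  rw [hf]
  ring

end

end Vale.Agent.P252
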