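import Vale.Agent.P252.K

open MeasureTheory Set Filter Topology

namespace Vale.Agent.P252

def GX (M X e : ℝ) : ℝ := 6 * M * X + X * (2 + e - X)
def Ge (M X e u : ℝ) : ℝ := 6 * M * e + (1 + e) * (X + (M + 3) * u * (1 + e) - M * e)
def Gu (M X e u : ℝ) : ℝ := 6 * M * u + ((1 - u) * (u * (1 + e) + X) - (M - 1) * u)

structure Bx (X e u : ℝ) : Prop where
  X0 : 0 ≤ X
  X1 : X ≤ 9 / 2
  e0 : 0 ≤ e
  e1 : e ≤ 5 / 2
  u0 : 0 ≤ u
  u1 : u ≤ 3 / 7

lemma G_mono {M X e u X' e' u' : ℝ} (hM : 9 ≤ M) (h : Bx X e u) (h' : Bx X' e' u')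
    (hX : X ≤ X') (he : e ≤ e') (hu : u ≤ u') :
    GX M X e ≤ GX M X' e' ∧ Ge M X e u ≤ Ge M X' e' u' ∧ Gu M X e u ≤ Gu M X' e' u' := by
  obtain ⟨a1, a2, a3, a4, a5, a6⟩ := h
  obtain ⟨b1, b2, b3, b4, b5, b6⟩ := h'
  refine ⟨?_, ?_, ?_⟩
  · unfold GX
    have h1 : X * e ≤ X * e' := by gcongr
    have h2 : 0 ≤ (X' - X) * (6 * M + 2 + e' - X - X') :=
      mul_nonneg (by linarith) (by linarith)
    nlinarith
  · unfold Ge
    have h1 : (1 + e) * X ≤ (1 + e') * X' := by gcongr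
    have h2 : (M + 3) * u * (1 + e) ^ 2 ≤ (M + 3) * u' * (1 + e') ^ 2 := by gcongr
    have h3 : 0 ≤ (e' - e) * (M * (5 - e - e')) :=
      mul_nonneg (by linarith) (mul_nonneg (by linarith) (by linarith))
    nlinarith
  · unfold Gu
    have h1 : (1 - u) * (u * (1 + e) + X) ≤ (1 - u) * (u * (1 + e') + X') := by
      gcongr; linarith
    have h2 : 0 ≤ (1 + e') * (1 - u - u') := mul_nonneg (by linarith) (by linarith)
    have h3 : 0 ≤ (u' - u) * ((5 * M + 1) + (1 + e') * (1 - u - u') - X') :=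
      mul_nonneg (by linarith) (by linarith)
    nlinarith

lemma Bx_top : Bx (9 / 2) (5 / 2) (3 / 7) := by constructor <;> norm_num
lemma Bx_bot : Bx 0 0 0 := by constructor <;> norm_num

lemma G_bounds {M X e u : ℝ} (hM : 9 ≤ M) (h : Bx X e u) :
    (0 ≤ GX M X e ∧ GX M X e ≤ 6 * M * (9 / 2)) ∧ (0 ≤ Ge M X e u ∧ Ge M X e u ≤ 6 * M * (5 / 2)) ∧
      (0 ≤ Gu M X e u ∧ Gu M X e u ≤ 6 * M * (3 / 7)) := by
  have h1 := G_mono hM Bx_bot h h.X0 h.e0 h.u0
  have h2 := G_mono hM h Bx_top h.X1 h.e1 h.u1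
  simp only [GX, Ge, Gu] at *
  refine ⟨⟨?_, ?_⟩, ⟨?_, ?_⟩, ⟨?_, ?_⟩⟩ <;> linarith [h1.1, h1.2.1, h1.2.2, h2.1, h2.2.1, h2.2.2]

abbrev St := (ℝ → ℝ) × (ℝ → ℝ) × (ℝ → ℝ)

noncomputable def T (k : ℕ) (s : St) : St :=
  (K (6 * k + 17) fun w => GX (k + 3) (s.1 w) (s.2.1 w),
   K (6 * k + 17) fun w => Ge (k + 3) (s.1 w) (s.2.1 w) (s.2.2 w),
   K (6 * k + 17) fun w => Gu (k + 3) (s.1 w) (s.2.1 w) (s.2.2 w))

structure Bd (s : St) : Prop where
  box : ∀ z, 0 ≤ z → Bx (s.1 z) (s.2.1 z) (s.2.2 z)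
  lo : ∀ z, 0 ≤ z → 2 * z / (1 + z) ≤ s.1 z
  loc : ∀ z, 0 ≤ z → z ≤ 1 / 12 → s.1 z ≤ 2 * z + 12 * z ^ 2 ∧ s.2.1 z ≤ 8 * z ∧ s.2.2 z ≤ z / 2

structure Ct (s : St) : Prop where
  c1 : ContinuousOn s.1 (Ici 0)
  c2 : ContinuousOn s.2.1 (Ici 0)
  c3 : ContinuousOn s.2.2 (Ici 0)

lemma Ct.g {s : St} (h : Ct s) (M : ℝ) :
    ContinuousOn (fun w => GX M (s.1 w) (s.2.1 w)) (Ici 0) ∧
    ContinuousOn (fun w => Ge M (s.1 w) (s.2.1 w) (s.2.2 w)) (Ici 0) ∧
    ContinuousOn (fun w => Gu M (s.1 w) (s.2.1 w) (s.2.2 w)) (Ici 0) := by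
  obtain ⟨h1, h2, h3⟩ := h
  unfold GX Ge Gu
  refine ⟨?_, ?_, ?_⟩ <;> fun_prop

lemma Ct.T {s : St} (h : Ct s) (k : ℕ) : Ct (T k s) :=
  ⟨K_cont (h.g _).1 _, K_cont (h.g _).2.1 _, K_cont (h.g _).2.2 _⟩

lemma K_poly (i : ℕ) (a b c : ℝ) {z : ℝ} (hz : 0 ≤ z) :
    K i (fun w => (i + 1) * a + (i + 3) * b * w + (i + 5) * c * w ^ 2) z = a + b * z + c * z ^ 2 := by
  refine K_solve (h := fun z => a + b * z + c * z ^ 2) i (by fun_prop) (by fun_prop)
    (fun w hw => ?_) hz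
  have := (((hasDerivAt_id w).const_mul b).const_add a).add ((hasDerivAt_pow 2 w).const_mul c)
  refine this.congr_deriv ?_
  field_simp
  ring

lemma cont_lo : ContinuousOn (fun z : ℝ => 2 * z / (1 + z)) (Ici 0) :=
  ContinuousOn.div (by fun_prop) (by fun_prop) fun z hz => by
    have : (0 : ℝ) ≤ z := hz
    positivity

lemma lo_box {z : ℝ} (hz : 0 ≤ z) : Bx (2 * z / (1 + z)) 0 0 := by
  have : 2 * z / (1 + z) ≤ 2 := by rw [div_le_iff₀ (by positivity)]; linarith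
  constructor <;> first | positivity | linarith

lemma Bd.T {s : St} (h : Bd s) (hc : Ct s) {k : ℕ} (hk : 6 ≤ k) : Bd (T k s) := by
  have hM : (9 : ℝ) ≤ k + 3 := by
    have : (6 : ℝ) ≤ k := by exact_mod_cast hk
    linarith
  obtain ⟨g1, g2, g3⟩ := hc.g ((k : ℝ) + 3)
  have up : ∀ {g : ℝ → ℝ}, ContinuousOn g (Ici 0) → ∀ (a b c z : ℝ), 0 ≤ z →
      (∀ w, 0 ≤ w → w ≤ z → g w ≤ (6 * k + 18) * a + (6 * k + 20) * b * w + (6 * k + 22) * c * w ^ 2) →
      K (6 * k + 17) g z ≤ a + b * z + c * z ^ 2 := by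
    intro g hg a b c z hz hw
    rw [← K_poly (6 * k + 17) a b c hz]
    refine K_mono hg (by fun_prop) _ hz fun w h0 h1 => (hw w h0 h1).trans (le_of_eq ?_)
    push_cast; ring
  have dn : ∀ {g : ℝ → ℝ}, ContinuousOn g (Ici 0) → ∀ z : ℝ, 0 ≤ z →
      (∀ w, 0 ≤ w → 0 ≤ g w) → 0 ≤ K (6 * k + 17) g z := by
    intro g hg z hz hw
    have := K_mono (g := fun _ => 0) continuousOn_const hg (6 * k + 17) hz fun w h0 _ => hw w h0
    simpa [K] using this
  refine ⟨fun z hz => ⟨?_, ?_, ?_, ?_, ?_, ?_⟩, fun z hz => ?_, fun z hz hz1 => ⟨?_, ?_, ?_⟩⟩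
  · exact dn g1 z hz fun w hw => (G_bounds hM (h.box w hw)).1.1
  · have := up g1 (9 / 2) 0 0 z hz fun w hw _ => by linarith [(G_bounds hM (h.box w hw)).1.2]
    simpa [Vale.Agent.P252.T] using this
  · exact dn g2 z hz fun w hw => (G_bounds hM (h.box w hw)).2.1.1
  · have := up g2 (5 / 2) 0 0 z hz fun w hw _ => by linarith [(G_bounds hM (h.box w hw)).2.1.2]
    simpa [Vale.Agent.P252.T] using this
  · exact dn g3 z hz fun w hw => (G_bounds hM (h.box w hw)).2.2.1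
  · have := up g3 (3 / 7) 0 0 z hz fun w hw _ => by linarith [(G_bounds hM (h.box w hw)).2.2.2]
    simpa [Vale.Agent.P252.T] using this
  · have c0 : ContinuousOn (fun w : ℝ => GX (k + 3) (2 * w / (1 + w)) 0) (Ici 0) := by
      have := cont_lo
      unfold GX; fun_prop
    have h1 := K_solve (h := fun z => 2 * z / (1 + z)) (6 * k + 17) cont_lo c0 (fun w hw => by
      have := ((hasDerivAt_id w).const_mul 2).div ((hasDerivAt_id w).const_add 1)
        (by simp only [id]; positivity)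
      refine this.congr_deriv ?_
      simp only [id, GX]
      push_cast
      field_simp
      ring) hz
    rw [← h1]
    exact K_mono c0 g1 _ hz fun w hw _ =>
      (G_mono hM (lo_box hw) (h.box w hw) (h.lo w hw) (h.box w hw).e0 (h.box w hw).u0).1
  · have := up g1 0 2 12 z hz fun w hw hw1 => by
      obtain ⟨a1, a2, a3⟩ := h.loc w hw (by linarith)
      obtain ⟨b1, b2, b3, b4, b5, b6⟩ := h.box w hw
      have c1 : s.1 w * (6 * (k + 3) + 2 + s.2.1 w) ≤ (2 * w + 12 * w ^ 2) * (6 * (k + 3) + 2 + 8 * w) := by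
        gcongr
      have c2 : 0 ≤ w ^ 2 * (1 - 12 * w) := mul_nonneg (by positivity) (by linarith)
      unfold GX
      nlinarith [sq_nonneg (s.1 w)]
    simpa [Vale.Agent.P252.T] using this
  · have := up g2 0 8 0 z hz fun w hw hw1 => by
      obtain ⟨a1, a2, a3⟩ := h.loc w hw (by linarith)
      obtain ⟨b1, b2, b3, b4, b5, b6⟩ := h.box w hw
      have a4 : s.1 w ≤ 3 * w := by nlinarith
      have c1 : (1 + s.2.1 w) * (s.1 w + (k + 3 + 3) * s.2.2 w * (1 + s.2.1 w)) ≤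
          (7 / 2) * (3 * w + (k + 3 + 3) * (w / 2) * (7 / 2)) := by
        gcongr <;> linarith
      have c2 : 5 * (k + 3) * s.2.1 w ≤ 5 * (k + 3) * (8 * w) := by gcongr
      have c3 : 0 ≤ (k + 3) * s.2.1 w ^ 2 := by positivity
      have c4 : 0 ≤ ((k : ℝ) + 3 - 9) * w := mul_nonneg (by linarith) hw
      unfold Ge
      nlinarith
    simpa [Vale.Agent.P252.T] using this
  · have := up g3 0 (1 / 2) 0 z hz fun w hw hw1 => by
      obtain ⟨a1, a2, a3⟩ := h.loc w hw (by linarith)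
      obtain ⟨b1, b2, b3, b4, b5, b6⟩ := h.box w hw
      have a4 : s.1 w ≤ 3 * w := by nlinarith
      have c1 : (1 - s.2.2 w) * (s.2.2 w * (1 + s.2.1 w) + s.1 w) ≤ 1 * (w / 2 * (7 / 2) + 3 * w) := by
        gcongr <;> linarith
      have c2 : (5 * (k + 3) + 1) * s.2.2 w ≤ (5 * (k + 3) + 1) * (w / 2) := by gcongr
      have c4 : 0 ≤ ((k : ℝ) + 3 - 9) * w := mul_nonneg (by linarith) hw
      unfold Gu
      nlinarith
    simp only [zero_add, zero_mul, add_zero] at this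
    simp only [Vale.Agent.P252.T]
    linarith

noncomputable def Wn (k : ℕ) : ℕ → St
  | 0 => (fun z => 2 * z / (1 + z), fun _ => 0, fun _ => 0)
  | n + 1 => T k (Wn k n)

lemma Wn_inv {k : ℕ} (hk : 6 ≤ k) (n : ℕ) : Bd (Wn k n) ∧ Ct (Wn k n) := by
  induction n with
  | zero =>
    refine ⟨⟨fun z hz => lo_box hz, fun z _ => le_rfl, fun z hz _ => ⟨?_, ?_, ?_⟩⟩,
      cont_lo, continuousOn_const, continuousOn_const⟩
    · change 2 * z / (1 + z) ≤ _
      rw [div_le_iff₀ (by positivity)]; nlinarith [mul_nonneg hz hz, mul_nonneg hz (mul_nonneg hz hz)]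
    · change 0 ≤ _; positivity
    · change 0 ≤ _; positivity
  | succ n ih => exact ⟨ih.1.T ih.2 hk, ih.2.T k⟩

lemma Wn_mono {k : ℕ} (hk : 6 ≤ k) (n : ℕ) : ∀ z, 0 ≤ z → (Wn k n).1 z ≤ (Wn k (n + 1)).1 z ∧
    (Wn k n).2.1 z ≤ (Wn k (n + 1)).2.1 z ∧ (Wn k n).2.2 z ≤ (Wn k (n + 1)).2.2 z := by
  have hM : (9 : ℝ) ≤ k + 3 := by
    have : (6 : ℝ) ≤ k := by exact_mod_cast hk
    linarith
  induction n with
  | zero =>
    intro z hz
    have h := (Wn_inv hk 1).1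
    exact ⟨h.lo z hz, (h.box z hz).e0, (h.box z hz).u0⟩
  | succ n ih =>
    intro z hz
    obtain ⟨b1, c1⟩ := Wn_inv hk n
    obtain ⟨b2, c2⟩ := Wn_inv hk (n + 1)
    have hG := fun w hw => G_mono hM (b1.box w hw) (b2.box w hw) (ih w hw).1 (ih w hw).2.1
      (ih w hw).2.2
    exact ⟨K_mono (c1.g _).1 (c2.g _).1 _ hz fun w hw _ => (hG w hw).1,
      K_mono (c1.g _).2.1 (c2.g _).2.1 _ hz fun w hw _ => (hG w hw).2.1,
      K_mono (c1.g _).2.2 (c2.g _).2.2 _ hz fun w hw _ => (hG w hw).2.2⟩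

lemma lim_exists {f : ℕ → ℝ → ℝ} (hc : ∀ n, ContinuousOn (f n) (Ici 0))
    (hm : ∀ n z, 0 ≤ z → f n z ≤ f (n + 1) z) (hb : ∀ n z, 0 ≤ z → f n z ≤ 5) :
    ∃ g : ℝ → ℝ, Measurable g ∧ ∀ z, 0 ≤ z → Tendsto (fun n => f n z) atTop (𝓝 (g z)) := by
  have h1 : ∀ z, Tendsto (fun n => f n (max z 0)) atTop (𝓝 (⨆ n, f n (max z 0))) := fun z =>
    tendsto_atTop_ciSup (monotone_nat_of_le_succ fun n => hm n _ (le_max_right _ _))
      ⟨5, by rintro _ ⟨n, rfl⟩; exact hb n _ (le_max_right _ _)⟩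
  refine ⟨fun z => ⨆ n, f n (max z 0), ?_, fun z hz => ?_⟩
  · refine measurable_of_tendsto_metrizable (f := fun n z => f n (max z 0)) (fun n => ?_)
      (tendsto_pi_nhds.mpr h1)
    exact ((hc n).comp_continuous (by fun_prop)
      fun w => mem_Ici.mpr (le_max_right _ _)).measurable
  · simpa [max_eq_left hz] using h1 z

lemma cont_of_squeeze {g : ℝ → ℝ} (hp : ContinuousOn g (Ioi 0)) (C : ℝ)
    (h : ∀ z, 0 ≤ z → z ≤ 1 / 12 → |g z - g 0| ≤ C * z) : ContinuousOn g (Ici 0) := by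
  intro z hz
  rcases (mem_Ici.mp hz).eq_or_lt with rfl | hz
  · rw [ContinuousWithinAt, tendsto_iff_norm_sub_tendsto_zero]
    have h1 : Tendsto (fun z : ℝ => C * z) (𝓝[Ici 0] 0) (𝓝 0) := by
      have : Tendsto (fun z : ℝ => C * z) (𝓝 0) (𝓝 (C * 0)) := (continuous_const.mul continuous_id).tendsto 0
      rw [mul_zero] at this
      exact this.mono_left nhdsWithin_le_nhds
    refine squeeze_zero' (Eventually.of_forall fun _ => norm_nonneg _) ?_ h1
    filter_upwards [Icc_mem_nhdsGE (show (0 : ℝ) < 1 / 12 by norm_num)] with w hw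
    exact h w hw.1 hw.2
  · exact ((hp z hz).continuousAt (Ioi_mem_nhds hz)).continuousWithinAt

theorem exists_sol {k : ℕ} (hk : 6 ≤ k) : ∃ s : St, Bd s ∧ Ct s ∧ ∀ z, 0 < z →
    HasDerivAt s.1 (s.1 z * (2 + s.2.1 z - s.1 z) / (2 * z)) z ∧
    HasDerivAt s.2.1 ((1 + s.2.1 z) * (s.1 z + (k + 6) * s.2.2 z * (1 + s.2.1 z)
      - (k + 3) * s.2.1 z) / (2 * z)) z ∧
    HasDerivAt s.2.2 (((1 - s.2.2 z) * (s.2.2 z * (1 + s.2.1 z) + s.1 z)
      - (k + 2) * s.2.2 z) / (2 * z)) z := by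
  have hM : (9 : ℝ) ≤ k + 3 := by
    have : (6 : ℝ) ≤ k := by exact_mod_cast hk
    linarith
  have hB := fun n => (Wn_inv hk n).1
  have hC := fun n => (Wn_inv hk n).2
  obtain ⟨X, mX, lX⟩ := lim_exists (fun n => (hC n).c1) (fun n z hz => (Wn_mono hk n z hz).1)
    (fun n z hz => by linarith [((hB n).box z hz).X1])
  obtain ⟨e, me, le⟩ := lim_exists (fun n => (hC n).c2) (fun n z hz => (Wn_mono hk n z hz).2.1)
    (fun n z hz => by linarith [((hB n).box z hz).e1])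
  obtain ⟨u, mu, lu⟩ := lim_exists (fun n => (hC n).c3) (fun n z hz => (Wn_mono hk n z hz).2.2)
    (fun n z hz => by linarith [((hB n).box z hz).u1])
  have hBd : Bd (X, e, u) := by
    refine ⟨fun z hz => ⟨?_, ?_, ?_, ?_, ?_, ?_⟩, fun z hz => ?_, fun z hz hz1 => ⟨?_, ?_, ?_⟩⟩
    · exact ge_of_tendsto' (lX z hz) fun n => ((hB n).box z hz).X0
    · exact le_of_tendsto' (lX z hz) fun n => ((hB n).box z hz).X1
    · exact ge_of_tendsto' (le z hz) fun n => ((hB n).box z hz).e0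
    · exact le_of_tendsto' (le z hz) fun n => ((hB n).box z hz).e1
    · exact ge_of_tendsto' (lu z hz) fun n => ((hB n).box z hz).u0
    · exact le_of_tendsto' (lu z hz) fun n => ((hB n).box z hz).u1
    · exact ge_of_tendsto' (lX z hz) fun n => (hB n).lo z hz
    · exact le_of_tendsto' (lX z hz) fun n => ((hB n).loc z hz hz1).1
    · exact le_of_tendsto' (le z hz) fun n => ((hB n).loc z hz hz1).2.1
    · exact le_of_tendsto' (lu z hz) fun n => ((hB n).loc z hz hz1).2.2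
  have ab : ∀ {a b c : ℝ}, Bx a b c → |GX (k + 3) a b| ≤ 30 * (k + 3) ∧
      |Ge (k + 3) a b c| ≤ 30 * (k + 3) ∧ |Gu (k + 3) a b c| ≤ 30 * (k + 3) := by
    intro a b c h
    obtain ⟨⟨a1, a2⟩, ⟨a3, a4⟩, ⟨a5, a6⟩⟩ := G_bounds hM h
    rw [abs_of_nonneg a1, abs_of_nonneg a3, abs_of_nonneg a5]
    refine ⟨?_, ?_, ?_⟩ <;> linarith
  have fX : ∀ z, 0 ≤ z → X z = K (6 * k + 17) (fun w => GX (k + 3) (X w) (e w)) z := fun z hz =>
    tendsto_nhds_unique ((lX z hz).comp (tendsto_add_atTop_nat 1))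
      (K_tendsto (gl := fun w => GX (k + 3) (X w) (e w)) (fun n => ((hC n).g _).1) (fun n w hw => (ab ((hB n).box w hw)).1)
        (fun w hw => by
          have h1 := lX w hw
          have h2 := le w hw
          unfold GX
          exact (h1.const_mul _).add (h1.mul ((h2.const_add _).sub h1))) (6 * k + 17) hz)
  have fe : ∀ z, 0 ≤ z → e z = K (6 * k + 17) (fun w => Ge (k + 3) (X w) (e w) (u w)) z := fun z hz =>
    tendsto_nhds_unique ((le z hz).comp (tendsto_add_atTop_nat 1))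
      (K_tendsto (gl := fun w => Ge (k + 3) (X w) (e w) (u w)) (fun n => ((hC n).g _).2.1) (fun n w hw => (ab ((hB n).box w hw)).2.1)
        (fun w hw => by
          have h1 := lX w hw
          have h2 := le w hw
          have h3 := lu w hw
          unfold Ge
          exact (h2.const_mul _).add ((h2.const_add _).mul ((h1.add ((h3.const_mul _).mul
            (h2.const_add _))).sub (h2.const_mul _)))) (6 * k + 17) hz)
  have fu : ∀ z, 0 ≤ z → u z = K (6 * k + 17) (fun w => Gu (k + 3) (X w) (e w) (u w)) z := fun z hz =>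
    tendsto_nhds_unique ((lu z hz).comp (tendsto_add_atTop_nat 1))
      (K_tendsto (gl := fun w => Gu (k + 3) (X w) (e w) (u w)) (fun n => ((hC n).g _).2.2) (fun n w hw => (ab ((hB n).box w hw)).2.2)
        (fun w hw => by
          have h1 := lX w hw
          have h2 := le w hw
          have h3 := lu w hw
          unfold Gu
          exact (h3.const_mul _).add (((h3.const_sub _).mul ((h3.mul (h2.const_add _)).add h1)).sub
            (h3.const_mul _))) (6 * k + 17) hz)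
  obtain ⟨z1, z2, z3⟩ := hBd.loc 0 le_rfl (by norm_num)
  obtain ⟨y1, -, y2, -, y3, -⟩ := hBd.box 0 le_rfl
  have X0 : X 0 = 0 := le_antisymm (by simpa using z1) y1
  have e0 : e 0 = 0 := le_antisymm (by simpa using z2) y2
  have u0 : u 0 = 0 := le_antisymm (by simpa using z3) y3
  have hCt : Ct (X, e, u) := by
    refine ⟨cont_of_squeeze ?_ 3 fun z hz hz1 => ?_, cont_of_squeeze ?_ 8 fun z hz hz1 => ?_,
      cont_of_squeeze ?_ (1 / 2) fun z hz hz1 => ?_⟩
    · refine (K_cont_pos (g := fun w => GX (k + 3) (X w) (e w)) (by unfold GX; fun_prop)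
        (fun w hw => (ab (hBd.box w hw)).1) _).congr fun z hz => fX z (le_of_lt hz)
    · have h1 : X z ≤ 2 * z + 12 * z ^ 2 := (hBd.loc z hz hz1).1
      have h2 : 0 ≤ X z := (hBd.box z hz).X0
      simp only [X0, sub_zero]
      rw [abs_of_nonneg h2]; nlinarith
    · refine (K_cont_pos (g := fun w => Ge (k + 3) (X w) (e w) (u w)) (by unfold Ge; fun_prop)
        (fun w hw => (ab (hBd.box w hw)).2.1) _).congr fun z hz => fe z (le_of_lt hz)
    · have h1 : e z ≤ 8 * z := (hBd.loc z hz hz1).2.1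
      have h2 : 0 ≤ e z := (hBd.box z hz).e0
      simp only [e0, sub_zero]
      rwa [abs_of_nonneg h2]
    · refine (K_cont_pos (g := fun w => Gu (k + 3) (X w) (e w) (u w)) (by unfold Gu; fun_prop)
        (fun w hw => (ab (hBd.box w hw)).2.2) _).congr fun z hz => fu z (le_of_lt hz)
    · have h1 : u z ≤ z / 2 := (hBd.loc z hz hz1).2.2
      have h2 : 0 ≤ u z := (hBd.box z hz).u0
      simp only [u0, sub_zero]
      rw [abs_of_nonneg h2]; linarith
  refine ⟨(X, e, u), hBd, hCt, fun z hz => ⟨?_, ?_, ?_⟩⟩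
  · refine ((K_deriv (hCt.g ((k : ℝ) + 3)).1 (6 * k + 17) hz).congr_of_eventuallyEq
      ((eventually_gt_nhds hz).mono fun w hw => fX w hw.le)).congr_deriv ?_
    have := fX z hz.le
    dsimp only
    rw [← this]
    unfold GX
    push_cast; ring
  · refine ((K_deriv (hCt.g ((k : ℝ) + 3)).2.1 (6 * k + 17) hz).congr_of_eventuallyEq
      ((eventually_gt_nhds hz).mono fun w hw => fe w hw.le)).congr_deriv ?_
    have := fe z hz.le
    dsimp only
    rw [← this]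
    unfold Ge
    push_cast; ring
  · refine ((K_deriv (hCt.g ((k : ℝ) + 3)).2.2 (6 * k + 17) hz).congr_of_eventuallyEq
      ((eventually_gt_nhds hz).mono fun w hw => fu w hw.le)).congr_deriv ?_
    have := fu z hz.le
    dsimp only
    rw [← this]
    unfold Gu
    push_cast; ring

end Vale.Agent.P252
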