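import Mathlib

open MeasureTheory Set Filter Topology intervalIntegral

namespace Vale.Agent.P252

noncomputable def K (i : ℕ) (g : ℝ → ℝ) (z : ℝ) : ℝ := ∫ τ in (0 : ℝ)..1, τ ^ i * g (τ ^ 2 * z)

lemma cont_int {g : ℝ → ℝ} (hg : ContinuousOn g (Ici 0)) (i : ℕ) {z : ℝ} (hz : 0 ≤ z) :
    Continuous (fun τ : ℝ => τ ^ i * g (τ ^ 2 * z)) :=
  (continuous_pow i).mul (hg.comp_continuous (by fun_prop) fun τ => mem_Ici.mpr (by positivity))

lemma K_congr {g g' : ℝ → ℝ} (h : ∀ w, 0 ≤ w → g w = g' w) (i : ℕ) {z : ℝ} (hz : 0 ≤ z) :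
    K i g z = K i g' z := by
  unfold K
  exact intervalIntegral.integral_congr fun τ _ => by rw [h _ (by positivity)]

lemma K_cont {g : ℝ → ℝ} (hg : ContinuousOn g (Ici 0)) (i : ℕ) : ContinuousOn (K i g) (Ici 0) := by
  have h1 : Continuous (fun w => g (max w 0)) :=
    hg.comp_continuous (by fun_prop) fun w => mem_Ici.mpr (le_max_right _ _)
  have h2 : Continuous (K i fun w => g (max w 0)) := by
    unfold K
    refine intervalIntegral.continuous_parametric_intervalIntegral_of_continuous' ?_ 0 1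
    have : Continuous (fun p : ℝ × ℝ => p.2 ^ 2 * p.1) := by fun_prop
    exact ((continuous_pow i).comp continuous_snd).mul (h1.comp this)
  exact h2.continuousOn.congr fun z hz => K_congr (fun w hw => by rw [max_eq_left hw]) i hz

lemma K_mono {g g' : ℝ → ℝ} (hg : ContinuousOn g (Ici 0)) (hg' : ContinuousOn g' (Ici 0)) (i : ℕ)
    {z : ℝ} (hz : 0 ≤ z) (h : ∀ w, 0 ≤ w → w ≤ z → g w ≤ g' w) : K i g z ≤ K i g' z := by
  unfold K
  refine intervalIntegral.integral_mono_on zero_le_one ((cont_int hg i hz).intervalIntegrable _ _)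
    ((cont_int hg' i hz).intervalIntegrable _ _) fun τ hτ => ?_
  have h1 : τ ^ 2 ≤ 1 := pow_le_one₀ hτ.1 hτ.2
  have h0 := hτ.1
  refine mul_le_mul_of_nonneg_left (h _ (by positivity) ?_) (by positivity)
  nlinarith

lemma K_add {g g' : ℝ → ℝ} (hg : ContinuousOn g (Ici 0)) (hg' : ContinuousOn g' (Ici 0)) (i : ℕ)
    {z : ℝ} (hz : 0 ≤ z) : K i (fun w => g w + g' w) z = K i g z + K i g' z := by
  unfold K
  rw [← intervalIntegral.integral_add ((cont_int hg i hz).intervalIntegrable _ _)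
    ((cont_int hg' i hz).intervalIntegrable _ _)]
  exact intervalIntegral.integral_congr fun τ _ => by ring

lemma K_mulz (c : ℝ) (g : ℝ → ℝ) (i : ℕ) (z : ℝ) :
    K i (fun w => c * w * g w) z = c * z * K (i + 2) g z := by
  unfold K
  rw [← intervalIntegral.integral_const_mul]
  exact intervalIntegral.integral_congr fun τ _ => by ring

lemma K_mul (c : ℝ) (g : ℝ → ℝ) (i : ℕ) (z : ℝ) : K i (fun w => c * g w) z = c * K i g z := by
  unfold K
  rw [← intervalIntegral.integral_const_mul]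
  exact intervalIntegral.integral_congr fun τ _ => by ring

lemma K_eq_r (g : ℝ → ℝ) (i : ℕ) {z : ℝ} (hz : 0 < z) :
    K i g z = (∫ ρ in (0 : ℝ)..√z, ρ ^ i * g (ρ ^ 2)) / (√z) ^ (i + 1) := by
  have hs : 0 < √z := Real.sqrt_pos.mpr hz
  have h := intervalIntegral.smul_integral_comp_mul_right (a := 0) (b := 1)
    (fun ρ : ℝ => ρ ^ i * g (ρ ^ 2)) (√z)
  simp only [zero_mul, one_mul, smul_eq_mul] at h
  rw [← h, eq_div_iff (by positivity)]
  unfold K
  have : ∀ τ : ℝ, (τ * √z) ^ i * g ((τ * √z) ^ 2) = (√z) ^ i * (τ ^ i * g (τ ^ 2 * z)) := by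
    intro τ; rw [mul_pow τ _ 2, Real.sq_sqrt hz.le]; ring
  simp only [this]
  rw [intervalIntegral.integral_const_mul]; ring

lemma K_cont_pos {g : ℝ → ℝ} (hg : Measurable g) {C : ℝ} (hb : ∀ w, 0 ≤ w → |g w| ≤ C) (i : ℕ) :
    ContinuousOn (K i g) (Ioi 0) := by
  have h1 : ∀ a b : ℝ, IntervalIntegrable (fun ρ : ℝ => ρ ^ i * g (ρ ^ 2)) volume a b := by
    intro a b
    have h2 : IntervalIntegrable (fun ρ : ℝ => g (ρ ^ 2)) volume a b := by
      refine (intervalIntegrable_const (c := C)).mono_fun'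
        (hg.comp (by fun_prop)).aestronglyMeasurable (Eventually.of_forall fun ρ => ?_)
      exact hb _ (by positivity)
    exact h2.continuousOn_mul (continuous_pow i).continuousOn
  have h3 := (intervalIntegral.continuous_primitive h1 0).comp Real.continuous_sqrt
  have h4 : ContinuousOn (fun z => (∫ ρ in (0 : ℝ)..√z, ρ ^ i * g (ρ ^ 2)) / (√z) ^ (i + 1))
      (Ioi 0) := h3.continuousOn.div (by fun_prop) fun z hz => by
        have := Real.sqrt_pos.mpr hz; positivity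
  exact h4.congr fun z hz => K_eq_r g i hz

lemma K_deriv {g : ℝ → ℝ} (hg : ContinuousOn g (Ici 0)) (i : ℕ) {z : ℝ} (hz : 0 < z) :
    HasDerivAt (K i g) ((g z - (i + 1) * K i g z) / (2 * z)) z := by
  have hs : 0 < √z := Real.sqrt_pos.mpr hz
  have hc : Continuous (fun ρ : ℝ => ρ ^ i * g (ρ ^ 2)) := by
    simpa using cont_int hg i zero_le_one
  have h1 := (hc.integral_hasStrictDerivAt 0 (√z)).hasDerivAt
  have h2 := Real.hasDerivAt_sqrt hz.ne'
  have h3 := (h1.comp z h2).div (h2.pow (i + 1)) (pow_ne_zero _ hs.ne')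
  have h4 : K i g =ᶠ[𝓝 z] fun z => (∫ ρ in (0 : ℝ)..√z, ρ ^ i * g (ρ ^ 2)) / (√z) ^ (i + 1) :=
    (eventually_gt_nhds hz).mono fun w hw => K_eq_r g i hw
  refine (h3.congr_of_eventuallyEq h4).congr_deriv ?_
  rw [K_eq_r g i hz]
  obtain ⟨s, hs'⟩ : ∃ s, s = √z := ⟨_, rfl⟩
  have hz' : z = s ^ 2 := by rw [hs', Real.sq_sqrt hz.le]
  simp only [Function.comp, Pi.pow_apply, Nat.add_sub_cancel]
  have hs0 : s ≠ 0 := by rw [hs']; exact hs.ne'
  rw [← hs', hz']
  push_cast
  field_simp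
  ring

lemma K_solve {h g : ℝ → ℝ} (i : ℕ) (hh : ContinuousOn h (Ici 0)) (hg : ContinuousOn g (Ici 0))
    (hd : ∀ z, 0 < z → HasDerivAt h ((g z - (i + 1) * h z) / (2 * z)) z) {z : ℝ} (hz : 0 ≤ z) :
    K i g z = h z := by
  have key : ∀ z, 0 < z → K i g z = h z := by
    intro z hz
    have h1 := intervalIntegral.integral_eq_sub_of_hasDerivAt_of_le (a := 0) (b := 1)
      (f := fun τ => τ ^ (i + 1) * h (τ ^ 2 * z)) (f' := fun τ => τ ^ i * g (τ ^ 2 * z)) zero_le_one
      (cont_int hh (i + 1) hz.le).continuousOn (fun τ hτ => by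
        have h0 := hτ.1
        have h2 : HasDerivAt (fun τ : ℝ => τ ^ 2 * z) (2 * τ * z) τ := by
          simpa using (hasDerivAt_pow 2 τ).mul_const z
        have h3 := (hasDerivAt_pow (i + 1) τ).mul ((hd _ (by positivity)).comp τ h2)
        refine h3.congr_deriv ?_
        simp only [Function.comp, Nat.add_sub_cancel]
        push_cast
        field_simp
        ring) ((cont_int hg i hz.le).intervalIntegrable _ _)
    unfold K
    rw [h1]; simp
  rcases hz.eq_or_lt with rfl | hz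
  · have h1 : Tendsto (K i g) (𝓝[>] 0) (𝓝 (K i g 0)) :=
      ((K_cont hg i) 0 self_mem_Ici).mono_left (nhdsWithin_mono _ Ioi_subset_Ici_self)
    have h2 : Tendsto h (𝓝[>] 0) (𝓝 (h 0)) :=
      (hh 0 self_mem_Ici).mono_left (nhdsWithin_mono _ Ioi_subset_Ici_self)
    have h3 : K i g =ᶠ[𝓝[>] 0] h := eventually_nhdsWithin_of_forall fun w hw => key w hw
    exact tendsto_nhds_unique (h1.congr' h3) h2
  · exact key z hz

lemma K_tendsto {g : ℕ → ℝ → ℝ} {gl : ℝ → ℝ} {C : ℝ} (hc : ∀ n, ContinuousOn (g n) (Ici 0))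
    (hb : ∀ n w, 0 ≤ w → |g n w| ≤ C)
    (hl : ∀ w, 0 ≤ w → Tendsto (fun n => g n w) atTop (𝓝 (gl w))) (i : ℕ) {z : ℝ} (hz : 0 ≤ z) :
    Tendsto (fun n => K i (g n) z) atTop (𝓝 (K i gl z)) := by
  unfold K
  refine intervalIntegral.tendsto_integral_filter_of_dominated_convergence (fun _ => C)
    (Eventually.of_forall fun n => (cont_int (hc n) i hz).aestronglyMeasurable)
    (Eventually.of_forall fun n => Eventually.of_forall fun τ hτ => ?_) intervalIntegrable_const
    (Eventually.of_forall fun τ _ => (hl _ (by positivity)).const_mul _)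
  rw [uIoc_of_le zero_le_one] at hτ
  have h0 := hτ.1
  have h1 : τ ^ i ≤ 1 := pow_le_one₀ h0.le hτ.2
  rw [Real.norm_eq_abs, abs_mul, abs_of_pos (by positivity)]
  have h2 := hb n (τ ^ 2 * z) (by positivity)
  calc _ ≤ 1 * C := by gcongr
    _ = C := one_mul C

lemma hasDerivWithin_of {g g' : ℝ → ℝ} (hg : ContinuousOn g (Ici 0))
    (hg' : ContinuousOn g' (Ici 0)) (hd : ∀ z, 0 < z → HasDerivAt g (g' z) z) {z : ℝ} (hz : 0 ≤ z) :
    HasDerivWithinAt g (g' z) (Ici 0) z := by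
  rcases hz.eq_or_lt with rfl | hz
  · refine hasDerivWithinAt_Ici_of_tendsto_deriv (s := Ioi 0)
      (fun w hw => (hd w hw).differentiableAt.differentiableWithinAt)
      ((hg 0 self_mem_Ici).mono Ioi_subset_Ici_self) self_mem_nhdsWithin ?_
    have h2 : Tendsto g' (𝓝[>] 0) (𝓝 (g' 0)) :=
      (hg' 0 self_mem_Ici).mono_left (nhdsWithin_mono _ Ioi_subset_Ici_self)
    exact h2.congr' (eventually_nhdsWithin_of_forall fun w hw => (hd w hw).deriv.symm)
  · exact (hd z hz).hasDerivWithinAt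

lemma smooth_succ {g g' : ℝ → ℝ} {k : ℕ} (hg : ContinuousOn g (Ici 0))
    (hg' : ContDiffOn ℝ k g' (Ici 0)) (hd : ∀ z, 0 < z → HasDerivAt g (g' z) z) :
    ContDiffOn ℝ ((k + 1 : ℕ) : WithTop ℕ∞) g (Ici 0) := by
  have h1 := fun z hz => hasDerivWithin_of hg hg'.continuousOn hd (z := z) hz
  push_cast
  rw [contDiffOn_succ_iff_derivWithin (uniqueDiffOn_Ici 0)]
  refine ⟨fun z hz => (h1 z hz).differentiableWithinAt, by simp, ?_⟩
  exact hg'.congr fun z hz => (h1 z hz).derivWithin (uniqueDiffOn_Ici 0 z hz)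

lemma smooth_deriv {g : ℝ → ℝ} {k : ℕ} (hg : ContDiffOn ℝ ((k + 1 : ℕ) : WithTop ℕ∞) g (Ici 0)) :
    ContDiffOn ℝ k (derivWithin g (Ici 0)) (Ici 0) ∧
      (∀ z, 0 ≤ z → HasDerivWithinAt g (derivWithin g (Ici 0) z) (Ici 0) z) := by
  push_cast at hg
  rw [contDiffOn_succ_iff_derivWithin (uniqueDiffOn_Ici 0)] at hg
  exact ⟨hg.2.2, fun z hz => (hg.1 z hz).hasDerivWithinAt⟩

lemma K_smooth (k : ℕ) : ∀ (i : ℕ) (g : ℝ → ℝ), ContDiffOn ℝ k g (Ici 0) →
    ContDiffOn ℝ k (K i g) (Ici 0) := by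
  induction k with
  | zero => intro i g hg; simpa using K_cont hg.continuousOn i
  | succ k ih =>
    intro i g hg
    obtain ⟨h1, h2⟩ := smooth_deriv hg
    obtain ⟨g', hg'⟩ : ∃ g', g' = derivWithin g (Ici 0) := ⟨_, rfl⟩
    rw [← hg'] at h1 h2
    refine smooth_succ (K_cont hg.continuousOn i) (ih (i + 2) _ h1) fun z hz => ?_
    refine (K_deriv hg.continuousOn i hz).congr_deriv ?_
    have c1 : ContinuousOn (fun w => 2 * w * g' w) (Ici 0) :=
      (continuousOn_const.mul continuousOn_id).mul h1.continuousOn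
    have c2 : ContinuousOn (fun w => ((i : ℝ) + 1) * g w) (Ici 0) :=
      continuousOn_const.mul hg.continuousOn
    have h3 := K_solve (h := g) (g := fun w => 2 * w * g' w + (i + 1) * g w) i hg.continuousOn
      (c1.add c2) (fun w hw => ((h2 w hw.le).hasDerivAt (Ici_mem_nhds hw)).congr_deriv (by
        field_simp; ring)) hz.le
    rw [K_add c1 c2 i hz.le, K_mulz, K_mul] at h3
    rw [← h3]
    field_simp
    ring

lemma K_smooth_z {k : ℕ} (i : ℕ) {H : ℝ → ℝ} (hH : ContDiffOn ℝ k H (Ici 0)) :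
    ContDiffOn ℝ ((k + 1 : ℕ) : WithTop ℕ∞) (K i fun w => 1 * w * H w) (Ici 0) := by
  have e : (K i fun w => 1 * w * H w) = fun z => z * K (i + 2) H z := by
    ext z; rw [K_mulz, one_mul]
  rw [e]
  have h1 := K_smooth k (i + 2) H hH
  refine smooth_succ (g' := fun z => H z / 2 - ((i + 1) / 2) * K (i + 2) H z)
    (continuousOn_id.mul h1.continuousOn) ((hH.div_const 2).sub (contDiffOn_const.mul h1))
    fun z hz => ?_
  refine ((hasDerivAt_id z).mul (K_deriv hH.continuousOn (i + 2) hz)).congr_deriv ?_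
  simp only [id]
  push_cast
  field_simp
  ring

end Vale.Agent.P252
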