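import Vale.Agent.P252.Iter

open MeasureTheory Set Filter Topology

namespace Vale.Agent.P252

lemma eq_of_pos {f g : ℝ → ℝ} (hf : ContinuousOn f (Ici 0)) (hg : ContinuousOn g (Ici 0))
    (h : ∀ z, 0 < z → f z = g z) {z : ℝ} (hz : 0 ≤ z) : f z = g z := by
  rcases hz.eq_or_lt with rfl | hz
  · have h1 : Tendsto f (𝓝[>] 0) (𝓝 (f 0)) :=
      (hf 0 self_mem_Ici).mono_left (nhdsWithin_mono _ Ioi_subset_Ici_self)
    have h2 : Tendsto g (𝓝[>] 0) (𝓝 (g 0)) :=
      (hg 0 self_mem_Ici).mono_left (nhdsWithin_mono _ Ioi_subset_Ici_self)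
    have h3 : f =ᶠ[𝓝[>] 0] g := eventually_nhdsWithin_of_forall fun w hw => h w hw
    exact tendsto_nhds_unique (h1.congr' h3) h2
  · exact h z hz

structure Prof (k : ℕ) (x y μ μ1 : ℝ → ℝ) : Prop where
  sx : ∀ j : ℕ, ContDiffOn ℝ j x (Ici 0)
  sy : ∀ j : ℕ, ContDiffOn ℝ j y (Ici 0)
  sμ : ∀ j : ℕ, ContDiffOn ℝ j μ (Ici 0)
  xpos : ∀ z, 0 ≤ z → 0 < x z
  ypos : ∀ z, 0 ≤ z → 0 ≤ y z
  dx : ∀ z, 0 ≤ z → HasDerivWithinAt x (x z * (y z - x z) / 2) (Ici 0) z
  dY : ∀ z, 0 ≤ z → HasDerivWithinAt (fun z => 1 + z * y z)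
    ((1 + z * y z) * (x z + (k + 6) * μ z * (1 + z * y z) - (k + 3) * y z) / 2) (Ici 0) z
  dμ : ∀ z, 0 ≤ z → HasDerivWithinAt μ (μ1 z) (Ici 0) z
  eμ : ∀ z, 0 ≤ z → 2 * z * μ1 z =
    (1 - z * μ z) * (μ z * (1 + z * y z) + x z) - (k + 4) * μ z

theorem exists_prof {k : ℕ} (hk : 6 ≤ k) : ∃ x y μ μ1, Prof k x y μ μ1 := by
  obtain ⟨⟨X, e, u⟩, hB, ⟨cX, ce, cu⟩, hd⟩ := exists_sol hk
  dsimp only at cX ce cu hd
  have box : ∀ z, 0 ≤ z → Bx (X z) (e z) (u z) := hB.box
  have lo : ∀ z, 0 ≤ z → 2 * z / (1 + z) ≤ X z := hB.lo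
  have loc : ∀ z, 0 ≤ z → z ≤ 1 / 12 → X z ≤ 2 * z + 12 * z ^ 2 ∧ e z ≤ 8 * z ∧ u z ≤ z / 2 :=
    hB.loc
  have pX := cX.mono Ioi_subset_Ici_self
  have pe := ce.mono Ioi_subset_Ici_self
  have pu := cu.mono Ioi_subset_Ici_self
  have hne : ∀ z ∈ Ioi (0 : ℝ), z ≠ 0 := fun z hz => ne_of_gt hz
  obtain ⟨x, hx⟩ : ∃ x : ℝ → ℝ, x = fun z => if z = 0 then 2 else X z / z := ⟨_, rfl⟩
  have x0 : x 0 = 2 := by simp [hx]
  have xp : ∀ z, 0 < z → x z = X z / z := fun z hz => by simp [hx, hz.ne']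
  have xlo : ∀ z, 0 ≤ z → 2 / (1 + z) ≤ x z := by
    intro z hz
    rcases hz.eq_or_lt with rfl | hz
    · simp [x0]
    · rw [xp z hz, le_div_iff₀ hz]
      refine le_trans (le_of_eq ?_) (lo z hz.le)
      ring
  have cx : ContinuousOn x (Ici 0) := by
    refine cont_of_squeeze ((pX.div continuousOn_id hne).congr fun z hz => xp z hz) 12
      fun z hz hz1 => ?_
    rcases hz.eq_or_lt with rfl | hz
    · simp
    · have h1 := xlo z hz.le
      have h2 : 2 - 2 * z ≤ 2 / (1 + z) := by rw [le_div_iff₀ (by positivity)]; nlinarith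
      have h3 : x z ≤ 2 + 12 * z := by
        rw [xp z hz, div_le_iff₀ hz]; nlinarith [(loc z hz.le hz1).1]
      rw [x0, abs_le]; constructor <;> linarith
  have hX : ∀ z, 0 < z → X z = z * x z := fun z hz => by rw [xp z hz]; field_simp
  obtain ⟨ru, hru⟩ : ∃ r : ℝ → ℝ,
    r = fun z => (u z * e z - u z ^ 2 * (1 + e z) - u z * X z) / z := ⟨_, rfl⟩
  have cru : ContinuousOn ru (Ici 0) := by
    rw [hru]
    refine cont_of_squeeze (ContinuousOn.div (by fun_prop) continuousOn_id hne) 7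
      fun z hz hz1 => ?_
    rcases hz.eq_or_lt with rfl | hz
    · simp
    · obtain ⟨a1, a2, a3⟩ := loc z hz.le hz1
      obtain ⟨b1, b2, b3, b4, b5, b6⟩ := box z hz.le
      have a4 : X z ≤ 3 * z := by nlinarith
      have c1 : u z * e z ≤ z / 2 * (8 * z) := by gcongr
      have c2 : u z ^ 2 * (1 + e z) ≤ (z / 2) ^ 2 * (7 / 2) := by gcongr; linarith
      have c3 : u z * X z ≤ z / 2 * (3 * z) := by gcongr
      have d1 : 0 ≤ u z * e z := by positivity
      have d2 : 0 ≤ u z ^ 2 * (1 + e z) := by positivity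
      have d3 : 0 ≤ u z * X z := by positivity
      simp only [div_zero, sub_zero]
      rw [abs_div, abs_of_pos hz, div_le_iff₀ hz, abs_le]
      constructor <;> nlinarith
  obtain ⟨μ, hμ⟩ : ∃ μ, μ = K (k + 2) (fun w => x w + ru w) := ⟨_, rfl⟩
  have cμ : ContinuousOn μ (Ici 0) := hμ ▸ K_cont (cx.add cru) _
  have hu : ∀ z, 0 ≤ z → u z = z * μ z := by
    intro z hz
    have := K_solve (h := u) (g := fun w => 1 * w * (x w + ru w)) k cu (by fun_prop)
      (fun w hw => (hd w hw).2.2.congr_deriv (by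
        simp only [hru, xp w hw]; field_simp; ring)) hz
    rw [← this, K_mulz, hμ, one_mul]
  obtain ⟨re, hre⟩ : ∃ r : ℝ → ℝ,
    r = fun z => e z * (X z + (k + 6) * u z * (2 + e z) - (k + 3) * e z) / z := ⟨_, rfl⟩
  have cre : ContinuousOn re (Ici 0) := by
    rw [hre]
    refine cont_of_squeeze (ContinuousOn.div (by fun_prop) continuousOn_id hne)
      (8 * (3 + 8 * (k + 6))) fun z hz hz1 => ?_
    rcases hz.eq_or_lt with rfl | hz
    · simp
    · obtain ⟨a1, a2, a3⟩ := loc z hz.le hz1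
      obtain ⟨b1, b2, b3, b4, b5, b6⟩ := box z hz.le
      have a4 : X z ≤ 3 * z := by nlinarith
      have c2 : (k + 6) * u z * (2 + e z) ≤ (k + 6) * (z / 2) * (9 / 2) := by gcongr; linarith
      have c3 : (k + 3) * e z ≤ (k + 6) * (8 * z) := by gcongr; linarith
      have d2 : 0 ≤ (k + 6) * u z * (2 + e z) := by positivity
      have d3 : 0 ≤ (k + 3) * e z := by positivity
      have d4 : 0 ≤ ((k : ℝ) + 6) * z := by positivity
      have c4 : |X z + (k + 6) * u z * (2 + e z) - (k + 3) * e z| ≤ (3 + 8 * (k + 6)) * z := by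
        rw [abs_le]; constructor <;> nlinarith
      simp only [div_zero, sub_zero]
      rw [abs_div, abs_of_pos hz, div_le_iff₀ hz, abs_mul, abs_of_nonneg b3]
      calc _ ≤ (8 * z) * ((3 + 8 * (k + 6)) * z) := by gcongr
        _ = _ := by ring
  obtain ⟨y, hy⟩ : ∃ y, y = K (k + 2 + 2) (fun w => x w + (k + 6) * μ w + re w) := ⟨_, rfl⟩
  have cy : ContinuousOn y (Ici 0) := hy ▸ K_cont (by fun_prop) _
  have he : ∀ z, 0 ≤ z → e z = z * y z := by
    intro z hz
    have := K_solve (h := e) (g := fun w => 1 * w * (x w + (k + 6) * μ w + re w)) (k + 2) ce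
      (by fun_prop) (fun w hw => (hd w hw).2.1.congr_deriv (by
        simp only [hre, xp w hw, hu w hw.le]; push_cast; field_simp; ring)) hz
    rw [← this, K_mulz, hy, one_mul]
  have hru' : ∀ w, 0 ≤ w → ru w =
      1 * w * (μ w * y w - μ w ^ 2 * (1 + w * y w) - μ w * x w) := by
    intro w hw
    rcases hw.eq_or_lt with rfl | hw
    · simp [hru]
    · simp only [hru, hu w hw.le, he w hw.le, hX w hw]; field_simp
  have hre' : ∀ w, 0 ≤ w → re w =
      1 * w * (y w * (x w + (k + 6) * μ w * (2 + w * y w) - (k + 3) * y w)) := by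
    intro w hw
    rcases hw.eq_or_lt with rfl | hw
    · simp [hre]
    · simp only [hre, hu w hw.le, he w hw.le, hX w hw]; field_simp
  have dx : ∀ z, 0 < z → HasDerivAt x (x z * (y z - x z) / 2) z := by
    intro z hz
    refine (((hd z hz).1.div (hasDerivAt_id z) hz.ne').congr_of_eventuallyEq
      ((eventually_gt_nhds hz).mono fun w hw => xp w hw)).congr_deriv ?_
    simp only [id, hX z hz, he z hz.le]
    field_simp
    ring
  have sm : ∀ j : ℕ, ContDiffOn ℝ j x (Ici 0) ∧ ContDiffOn ℝ j y (Ici 0) ∧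
      ContDiffOn ℝ j μ (Ici 0) := by
    intro j
    induction j with
    | zero => simpa using ⟨cx, cy, cμ⟩
    | succ j ih =>
      obtain ⟨s1, s2, s3⟩ := ih
      have t1 := smooth_succ cx ((s1.mul (s2.sub s1)).div_const 2) dx
      have sid : ContDiffOn ℝ j (fun w : ℝ => w) (Ici 0) := contDiffOn_id
      have H1 : ContDiffOn ℝ j (fun w => μ w * y w - μ w ^ 2 * (1 + w * y w) - μ w * x w) (Ici 0) :=
        ((s3.mul s2).sub ((s3.pow 2).mul (contDiffOn_const.add (sid.mul s2)))).sub (s3.mul s1)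
      have H2 : ContDiffOn ℝ j
          (fun w => y w * (x w + (k + 6) * μ w * (2 + w * y w) - (k + 3) * y w)) (Ici 0) :=
        s2.mul ((s1.add ((contDiffOn_const.mul s3).mul (contDiffOn_const.add (sid.mul s2)))).sub
          (contDiffOn_const.mul s2))
      have t3 : ContDiffOn ℝ ((j + 1 : ℕ) : WithTop ℕ∞) μ (Ici 0) := by
        refine ((K_smooth (j + 1) (k + 2) x t1).add (K_smooth_z (k + 2) H1)).congr fun z hz => ?_
        rw [← K_add cx (by have := H1.continuousOn; fun_prop) _ hz]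
        conv_lhs => rw [hμ]
        exact K_congr (fun w hw => by rw [hru' w hw]) _ hz
      have t4 : ContDiffOn ℝ ((j + 1 : ℕ) : WithTop ℕ∞) (fun w => x w + (k + 6) * μ w) (Ici 0) :=
        t1.add (contDiffOn_const.mul t3)
      have t2 : ContDiffOn ℝ ((j + 1 : ℕ) : WithTop ℕ∞) y (Ici 0) := by
        refine ((K_smooth (j + 1) (k + 2 + 2) _ t4).add (K_smooth_z (k + 2 + 2) H2)).congr
          fun z hz => ?_
        rw [← K_add t4.continuousOn (by have := H2.continuousOn; fun_prop) _ hz]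
        conv_lhs => rw [hy]
        exact K_congr (fun w hw => by rw [hre' w hw]) _ hz
      exact ⟨t1, t2, t3⟩
  obtain ⟨m1, m2⟩ := smooth_deriv (k := 0) (sm 1).2.2
  refine ⟨x, y, μ, derivWithin μ (Ici 0), fun j => (sm j).1, fun j => (sm j).2.1,
    fun j => (sm j).2.2, fun z hz => lt_of_lt_of_le (by positivity) (xlo z hz), fun z hz => ?_,
    fun z hz => hasDerivWithin_of cx (by fun_prop) dx hz, fun z hz => ?_, m2, fun z hz => ?_⟩
  · have h1 : ∀ z, 0 < z → max (y z) 0 = y z := fun z hz => by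
      have := (box z hz.le).e0
      rw [he z hz.le] at this
      exact max_eq_left (nonneg_of_mul_nonneg_right this hz)
    have h2 := eq_of_pos (f := fun z => max (y z) 0) (g := y) (by fun_prop) cy h1 hz
    rw [← h2]; exact le_max_right _ _
  · refine hasDerivWithin_of (g := fun z => 1 + z * y z) (g' := fun z =>
      (1 + z * y z) * (x z + (k + 6) * μ z * (1 + z * y z) - (k + 3) * y z) / 2)
      (by fun_prop) (by fun_prop) (fun z hz => ?_) hz
    refine (((hd z hz).2.1.const_add 1).congr_of_eventuallyEq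
      ((eventually_gt_nhds hz).mono fun w hw => by simp only [he w hw.le])).congr_deriv ?_
    simp only [hX z hz, he z hz.le, hu z hz.le]
    field_simp
  · have c1 := m1.continuousOn
    refine eq_of_pos (f := fun z => 2 * z * derivWithin μ (Ici 0) z) (g := fun z =>
      (1 - z * μ z) * (μ z * (1 + z * y z) + x z) - (k + 4) * μ z) (by fun_prop) (by fun_prop)
      (fun z hz => ?_) hz
    have h1 := (hasDerivAt_id z).mul ((m2 z hz.le).hasDerivAt (Ici_mem_nhds hz))
    have h2 := (hd z hz).2.2.congr_of_eventuallyEq (f₁ := fun w => w * μ w)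
      ((eventually_gt_nhds hz).mono fun w hw => (hu w hw.le).symm)
    have h3 := h1.unique h2
    simp only [id, hX z hz, he z hz.le, hu z hz.le] at h3
    field_simp at h3
    linarith

end Vale.Agent.P252
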